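import Vale.Agent.P353.All
import Vale.Agent.P353.Transp
import Vale.Agent.P353.HypKer

/-! The BFSS Hamiltonian has exactly one normalizable zero energy state, for every `N ≥ 2`. -/

open MeasureTheory

namespace Vale.Agent.Results.P353.Threshold

open Vale.Agent.P353

theorem result (N : ℕ) (hN : 2 ≤ N)
    (T : Fin (N ^ 2 - 1) → Matrix (Fin N) (Fin N) ℂ)
    (f : Fin (N ^ 2 - 1) → Fin (N ^ 2 - 1) → Fin (N ^ 2 - 1) → ℝ)
    (γ : Fin 9 → Matrix (Fin 16) (Fin 16) ℝ)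
    (F : Type) [NormedAddCommGroup F] [InnerProductSpace ℂ F] [FiniteDimensional ℂ F]
    (θ : Fin 16 → Fin (N ^ 2 - 1) → F →L[ℂ] F)
    (U : Matrix.specialUnitaryGroup (Fin N) ℂ →* (F ≃ₗᵢ[ℂ] F))
    (hT : IsBasis T f) (hγ : IsGamma γ) (hθ : IsClifford θ) (hU : Implements T θ U) :
    KernelDimOne volume {Ψ | IsTest T U Ψ} (form γ θ f) := by
  rw [KernelDimOne, formKernel_eq]
  have h : Data N (N ^ 2 - 1) F T f γ θ U :=
    ⟨hT.herm, hT.traceless, hT.orth, hT.span, hT.comm, hγ.symm, hγ.anti,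
      fun α A => ContinuousLinearMap.isSelfAdjoint_iff_isSymmetric.2 (hθ.adj α A),
      fun α β A B => by
        ext a
        have := hθ.anti α β A B a
        split_ifs at this ⊢ <;> exact this,
      hθ.nontrivial, hθ.irred, hU⟩
  have hN' : 1 ≤ N := by omega
  obtain ⟨c, hT', hγ', hθ', hU'⟩ := h.exists_ctx hN'
  obtain ⟨e, he⟩ := h.transport hN' c hT' hγ' hθ' hU'
  obtain ⟨v, hv0, hv⟩ := finrank_eq_one_iff'.1 (c.t_main ⊤)
  refine ⟨e v, ?_, fun Ψ => ⟨fun hΨ => ?_, ?_⟩⟩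
  · intro h0
    apply hv0
    have : (v : LL (sub 9 (c.ss ⊤)) F) = 0 := e.injective (by rw [h0, map_zero])
    exact Subtype.ext this
  · obtain ⟨u, rfl⟩ := e.surjective Ψ
    obtain ⟨z, hz⟩ := hv ⟨u, (he u).1 hΨ⟩
    refine ⟨z, ?_⟩
    rw [← map_smul]
    congr 1
    exact (congrArg Subtype.val hz).symm
  · rintro ⟨z, rfl⟩
    rw [← map_smul]
    exact (he _).2 ((c.V ⊤ 1 0).smul_mem z v.2)

end Vale.Agent.Results.P353.Threshold
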